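import Mathlib

/-!
# P190: small Cohen-Macaulay modules, basic definitions
-/

universe u

namespace Vale.Agent.P190

open RingTheory.Sequence IsLocalRing

/-- `M` is a small (maximal) Cohen-Macaulay module over the local ring `R`:
it is finitely generated and there is an `M`-regular sequence inside the maximal ideal
whose length equals the Krull dimension of `R`
(regularity of the sequence includes that `M / (rs) M` is nonzero, so `M` is nonzero). -/
def IsSmallCM (R : Type u) [CommRing R] [IsLocalRing R] (M : Type u) [AddCommGroup M]
    [Module R M] : Prop :=
  Module.Finite R M ∧ ∃ rs : List R, (∀ r ∈ rs, r ∈ maximalIdeal R) ∧ IsRegular M rs ∧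
    (rs.length : WithBot ℕ∞) = ringKrullDim R

/-- The local ring `R` admits a small Cohen-Macaulay module. -/
def HasSmallCM (R : Type u) [CommRing R] [IsLocalRing R] : Prop :=
  ∃ (M : Type u) (_ : AddCommGroup M) (_ : Module R M), IsSmallCM R M

end Vale.Agent.P190
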