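import Vale.Agent.P190.Rep

/-!
# P190: small Cohen-Macaulay modules go up along quadratic extensions `B + J y`
-/

universe u

namespace Vale.Agent.P190

open RingTheory.Sequence IsLocalRing

section

variable {B L : Type u} [CommRing B] [CommRing L] [Algebra B L]

theorem exists_functional (hinj : Function.Injective (algebraMap B L)) (J : Submodule B L) (t : L)
    (ht : ∀ x ∈ J, ∃ b : B, algebraMap B L b = x * t) :
    ∃ φ : J →ₗ[B] B, (∀ x : J, algebraMap B L (φ x) = x * t) ∧
      ∀ x x' : J, φ x • x' = φ x' • x := by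
  choose f hf using fun x : J => ht x x.2
  refine ⟨{ toFun := f
            map_add' := fun x x' => hinj (by simp [hf, add_mul])
            map_smul' := fun c x => hinj (by simp [hf, Algebra.smul_def, mul_assoc]) }, hf, ?_⟩
  intro x x'
  apply Subtype.ext
  simp only [LinearMap.coe_mk, AddHom.coe_mk, Submodule.coe_smul, Algebra.smul_def, hf]
  ring

theorem decomp_unique (hinj : Function.Injective (algebraMap B L)) (J : Submodule B L) (y : L)
    (hind : ∀ x ∈ J, ∀ b : B, x * y = algebraMap B L b → x = 0) (b b' : B) (x x' : J)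
    (h : algebraMap B L b + x * y = algebraMap B L b' + x' * y) : b = b' ∧ x = x' := by
  have h1 : ((x - x' : J) : L) * y = algebraMap B L (b' - b) := by
    simp only [Submodule.coe_sub, map_sub, sub_mul]
    linear_combination h
  have h2 : ((x - x' : J) : L) = 0 := hind _ (x - x').2 _ h1
  have h3 : x = x' := by
    apply Subtype.ext
    simpa [sub_eq_zero] using h2
  subst h3
  exact ⟨hinj (by simpa using h), rfl⟩

theorem main [IsLocalRing B] [IsNoetherianRing B]
    (hinj : Function.Injective (algebraMap B L)) (hB : HasSmallCM B)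
    (J : Submodule B L) (hJ : J.FG) (y a : L) (m : ℕ) (u v : Fin m → L)
    (hy : y ^ 2 = a * y + ∑ k, u k * v k)
    (ha : ∀ x ∈ J, ∃ b : B, algebraMap B L b = x * a)
    (hu : ∀ k, ∀ x ∈ J, ∃ b : B, algebraMap B L b = x * u k)
    (hv : ∀ k, ∀ x ∈ J, ∃ b : B, algebraMap B L b = x * v k)
    (hind : ∀ x ∈ J, ∀ b : B, x * y = algebraMap B L b → x = 0)
    (R : Subalgebra B L)
    (hR : ∀ z, z ∈ R ↔ ∃ b : B, ∃ x ∈ J, z = algebraMap B L b + x * y) [IsLocalRing R] :
    Module.Finite B R ∧ HasSmallCM R := by
  obtain ⟨N, iN1, iN2, hNfin, rs, hrs, hreg, hlen⟩ := hB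
  obtain ⟨α, hα, hα'⟩ := exists_functional hinj J a ha
  choose p hp hp' using fun k => exists_functional hinj J (u k) (hu k)
  choose q hq hq' using fun k => exists_functional hinj J (v k) (hv k)
  obtain ⟨F, iF1, iF2, Θ, hFfin, hFnt, hFreg, hΘ⟩ :=
    exists_rep rs hNfin hreg.nontrivial hreg.toIsWeaklyRegular α hα' m p q hp' hq'
  -- the decomposition
  have hdec : ∀ z : R, ∃ bx : B × J, (z : L) = algebraMap B L bx.1 + bx.2 * y := by
    intro z
    obtain ⟨b, x, hx, hz⟩ := (hR z).mp z.2
    exact ⟨(b, ⟨x, hx⟩), hz⟩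
  choose e he using hdec
  have huniq : ∀ (z : R) (b : B) (x : J), (z : L) = algebraMap B L b + x * y →
      (e z).1 = b ∧ (e z).2 = x := by
    intro z b x h
    exact decomp_unique hinj J y hind _ _ _ _ ((he z).symm.trans h)
  have e_one : (e 1).1 = 1 ∧ (e 1).2 = 0 := huniq 1 1 0 (by simp)
  have e_zero : (e 0).1 = 0 ∧ (e 0).2 = 0 := huniq 0 0 0 (by simp)
  have e_add : ∀ z z', (e (z + z')).1 = (e z).1 + (e z').1 ∧ (e (z + z')).2 = (e z).2 + (e z').2 := by
    intro z z'
    apply huniq
    simp only [Subalgebra.coe_add, map_add, Submodule.coe_add, he z, he z']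
    ring
  have e_mul : ∀ z z', (e (z * z')).1 = (e z).1 * (e z').1 + ∑ k, p k (e z).2 * q k (e z').2 ∧
      (e (z * z')).2 = (e z).1 • (e z').2 + (e z').1 • (e z).2 + α (e z).2 • (e z').2 := by
    intro z z'
    apply huniq
    simp only [Subalgebra.coe_mul, map_add, map_mul, map_sum, Submodule.coe_add,
      Submodule.coe_smul, Algebra.smul_def, hp, hq, hα]
    rw [he z, he z']
    have : ∑ k, ((e z).2 : L) * u k * (((e z').2 : L) * v k) =
        ((e z).2 : L) * ((e z').2 : L) * ∑ k, u k * v k := by
      rw [Finset.mul_sum]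
      exact Finset.sum_congr rfl fun k _ => by ring
    rw [this]
    linear_combination ((e z).2 : L) * ((e z').2 : L) * hy
  have e_alg : ∀ b : B, (e (algebraMap B R b)).1 = b ∧ (e (algebraMap B R b)).2 = 0 := by
    intro b
    apply huniq
    simp
  -- the ring homomorphism
  let ρ : R →+* Module.End B F :=
    { toFun := fun z => (e z).1 • (1 : Module.End B F) + Θ (e z).2
      map_one' := by simp [e_one.1, e_one.2]
      map_zero' := by simp [e_zero.1, e_zero.2]
      map_add' := by
        intro z z'
        simp only [(e_add z z').1, (e_add z z').2, map_add, add_smul]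
        abel
      map_mul' := by
        intro z z'
        ext f
        simp only [(e_mul z z').1, (e_mul z z').2, map_add, map_smul, add_smul,
          LinearMap.add_apply, LinearMap.smul_apply, Module.End.mul_apply, Module.End.one_apply,
          hΘ, smul_add, mul_smul]
        rw [smul_comm (e z).1 (e z').1 f]
        abel }
  let _ : Module R F := Module.compHom F ρ
  have hsmul : ∀ (z : R) (f : F), z • f = (e z).1 • f + Θ (e z).2 f := fun z f => rfl
  have : IsScalarTower B R F := by
    refine ⟨fun b z f => ?_⟩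
    rw [Algebra.smul_def, mul_smul, hsmul (algebraMap B R b)]
    simp [(e_alg b).1, (e_alg b).2]
  have : Module.Finite B J := Module.Finite.iff_fg.mpr hJ
  have hfinR : Module.Finite B R := by
    let σ : (B × J) →ₗ[B] L :=
      (Algebra.linearMap B L).coprod ((LinearMap.mulRight B y).comp J.subtype)
    have hσ : ∀ bx, σ bx ∈ Subalgebra.toSubmodule R := by
      intro bx
      exact (hR _).mpr ⟨bx.1, bx.2, bx.2.2, by simp [σ]⟩
    refine Module.Finite.of_surjective (LinearMap.codRestrict (Subalgebra.toSubmodule R) σ hσ) ?_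
    intro z
    refine ⟨e z, Subtype.ext ?_⟩
    have h0 : σ (e z) = (z : L) := by simp [σ, he z]
    exact h0
  refine ⟨hfinR, F, inferInstance, inferInstance, ?_⟩
  refine isSmallCM_of_tower (B := B) ?_ rs hrs hFreg hlen
  intro b hb
  rw [mem_maximalIdeal, mem_nonunits_iff] at hb ⊢
  intro hunit
  apply hb
  obtain ⟨z, hz⟩ := hunit.exists_right_inv
  have h1 := (e_mul (algebraMap B R b) z).1
  rw [hz, e_one.1, (e_alg b).1, (e_alg b).2] at h1
  simp only [map_zero, zero_mul, Finset.sum_const_zero, add_zero] at h1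
  exact IsUnit.of_mul_eq_one _ h1.symm

end

end Vale.Agent.P190
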