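import Vale.Agent.P190.Transfer

/-!
# P190: the Knorrer / Clifford recursion

Given linear functionals `α, p k, q k` on a `B`-module `X` which are `rank one`
(`φ x • x' = φ x' • x`), we construct on an iterated square `F` of a given module `N`
a linear family of endomorphisms `Θ x` with
`Θ x ∘ Θ x' = α x • Θ x' + (∑ k, p k x * q k x') • id`.
-/

universe u

namespace Vale.Agent.P190

open RingTheory.Sequence IsLocalRing

section step

variable {B X F : Type*} [CommRing B] [AddCommGroup X] [Module B X] [AddCommGroup F] [Module B F]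

/-- One step of the recursion: the block operator
`[[Θ x, q x], [p x, α x - Θ x]]` on `F × F`. -/
noncomputable def stepOp (α p q : X →ₗ[B] B) (Θ : X →ₗ[B] F →ₗ[B] F) :
    X →ₗ[B] (F × F) →ₗ[B] (F × F) :=
  LinearMap.mk₂ B
    (fun x fg => (Θ x fg.1 + q x • fg.2, p x • fg.1 + α x • fg.2 - Θ x fg.2))
    (by
      intro x x' fg
      ext
      · simp only [map_add, LinearMap.add_apply, Prod.fst_add, add_smul]; abel
      · simp only [map_add, LinearMap.add_apply, Prod.snd_add, add_smul]; abel)
    (by
      intro c x fg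
      ext
      · simp only [map_smul, LinearMap.smul_apply, Prod.smul_fst, smul_add, smul_eq_mul, mul_smul]
      · simp only [map_smul, LinearMap.smul_apply, Prod.smul_snd, smul_add, smul_sub, smul_eq_mul,
          mul_smul])
    (by
      intro x fg fg'
      ext
      · simp only [map_add, Prod.fst_add, Prod.snd_add, smul_add]; abel
      · simp only [map_add, Prod.fst_add, Prod.snd_add, smul_add]; abel)
    (by
      intro c x fg
      ext
      · simp only [map_smul, Prod.smul_fst, Prod.smul_snd, smul_add, smul_comm c]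
      · simp only [map_smul, Prod.smul_fst, Prod.smul_snd, smul_add, smul_sub, smul_comm c])

theorem stepOp_apply (α p q : X →ₗ[B] B) (Θ : X →ₗ[B] F →ₗ[B] F) (x : X) (fg : F × F) :
    stepOp α p q Θ x fg = (Θ x fg.1 + q x • fg.2, p x • fg.1 + α x • fg.2 - Θ x fg.2) := rfl

theorem stepOp_comp (α p q : X →ₗ[B] B) (Θ : X →ₗ[B] F →ₗ[B] F)
    (hα : ∀ x x', α x • x' = α x' • x) (hp : ∀ x x', p x • x' = p x' • x)
    (hq : ∀ x x', q x • x' = q x' • x) (c : X → X → B)
    (hΘ : ∀ x x' f, Θ x (Θ x' f) = α x • Θ x' f + c x x' • f) (x x' : X) (fg : F × F) :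
    stepOp α p q Θ x (stepOp α p q Θ x' fg) =
      α x • stepOp α p q Θ x' fg + (c x x' + p x * q x') • fg := by
  have sΘ : ∀ (φ : X →ₗ[B] B), (∀ x x', φ x • x' = φ x' • x) → ∀ x x' f,
      φ x • Θ x' f = φ x' • Θ x f := by
    intro φ hφ x x' f
    have := congrArg (fun t => Θ t f) (hφ x x')
    simpa using this
  have sφ : ∀ (φ ψ : X →ₗ[B] B), (∀ x x', φ x • x' = φ x' • x) → ∀ x x',
      φ x * ψ x' = φ x' * ψ x := by
    intro φ ψ hφ x x'
    have := congrArg ψ (hφ x x')
    simpa using this
  obtain ⟨f, g⟩ := fg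
  simp only [stepOp_apply]
  ext
  · simp only [map_add, map_smul, hΘ, Prod.fst_add, Prod.smul_fst, smul_add, smul_sub,
      smul_smul, add_smul]
    have e1 := sΘ q hq x x' g
    have e2 : q x * p x' = p x * q x' := by rw [mul_comm, sφ p q hp x' x]
    have e3 : q x * α x' = α x * q x' := by rw [mul_comm, sφ α q hα x' x]
    rw [e2, e3, ← e1]
    abel
  · simp only [map_add, map_smul, map_sub, hΘ, Prod.snd_add, Prod.smul_snd, smul_add, smul_sub,
      smul_smul, add_smul]
    have e1 := sΘ p hp x x' f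
    have e2 := sΘ α hα x x' g
    rw [e1, ← e2]
    abel

end step

theorem exists_rep {B X N : Type u} [CommRing B] [AddCommGroup X] [Module B X] [AddCommGroup N]
    [Module B N] (rs : List B) (hN : Module.Finite B N) (hN' : Nontrivial N)
    (hreg : IsWeaklyRegular N rs)
    (α : X →ₗ[B] B) (hα : ∀ x x', α x • x' = α x' • x) (m : ℕ) (p q : Fin m → X →ₗ[B] B)
    (hp : ∀ k x x', p k x • x' = p k x' • x) (hq : ∀ k x x', q k x • x' = q k x' • x) :
    ∃ (F : Type u) (_ : AddCommGroup F) (_ : Module B F) (Θ : X →ₗ[B] F →ₗ[B] F),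
      Module.Finite B F ∧ Nontrivial F ∧ IsWeaklyRegular F rs ∧
      ∀ x x' f, Θ x (Θ x' f) = α x • Θ x' f + (∑ k, p k x * q k x') • f := by
  induction m with
  | zero =>
    exact ⟨N, inferInstance, inferInstance, 0, hN, hN', hreg, by simp⟩
  | succ m ih =>
    obtain ⟨F, i1, i2, Θ, h1, h2, h3, h4⟩ := ih (fun k => p k.castSucc) (fun k => q k.castSucc)
      (fun k => hp k.castSucc) (fun k => hq k.castSucc)
    refine ⟨F × F, inferInstance, inferInstance,
      stepOp α (p (Fin.last m)) (q (Fin.last m)) Θ, inferInstance, inferInstance,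
      isWeaklyRegular_prod_self h3, ?_⟩
    intro x x' fg
    rw [Fin.sum_univ_castSucc]
    exact stepOp_comp α _ _ Θ hα (hp _) (hq _) _ h4 x x' fg

end Vale.Agent.P190
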