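import Vale.Agent.P190.Defs

/-!
# P190: transfer of small Cohen-Macaulay modules along module-finite extensions
-/

universe u

namespace Vale.Agent.P190

open RingTheory.Sequence IsLocalRing

theorem ringKrullDim_le_of_isIntegral (B R : Type*) [CommRing B] [CommRing R] [Algebra B R]
    [Algebra.IsIntegral B R] : ringKrullDim R ≤ ringKrullDim B := by
  refine Order.krullDim_le_of_strictMono
    (fun p : PrimeSpectrum R => PrimeSpectrum.comap (algebraMap B R) p) ?_
  intro p q hpq
  have h : p.asIdeal < q.asIdeal := hpq
  have := Ideal.IsIntegral.comap_lt_comap (R := B) h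
  exact this

theorem isWeaklyRegular_prod_self {B M : Type*} [CommRing B] [AddCommGroup M] [Module B M]
    {rs : List B} (h : IsWeaklyRegular M rs) : IsWeaklyRegular (M × M) rs :=
  ((TensorProduct.prodLeft B B B B M ≪≫ₗ
    (TensorProduct.lid B M).prodCongr (TensorProduct.lid B M)).isWeaklyRegular_congr rs).mp
    (h.isWeaklyRegular_lTensor (M₂ := B × B))

theorem isSmallCM_of_tower {B R F : Type u} [CommRing B] [IsLocalRing B] [IsNoetherianRing B]
    [CommRing R] [IsLocalRing R] [Algebra B R] [Module.Finite B R]
    [AddCommGroup F] [Module B F] [Module R F] [IsScalarTower B R F] [Module.Finite B F]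
    [Nontrivial F]
    (hloc : ∀ b ∈ maximalIdeal B, algebraMap B R b ∈ maximalIdeal R)
    (rs : List B) (hrs : ∀ r ∈ rs, r ∈ maximalIdeal B) (hreg : IsWeaklyRegular F rs)
    (hlen : (rs.length : WithBot ℕ∞) = ringKrullDim B) : IsSmallCM R F := by
  have : Module.Finite R F := Module.Finite.of_restrictScalars_finite B R F
  have : IsNoetherianRing R := IsNoetherianRing.of_finite B R
  have : Algebra.IsIntegral B R := inferInstance
  have hmem : ∀ r ∈ rs.map (algebraMap B R), r ∈ maximalIdeal R := by
    intro r hr
    obtain ⟨b, hb, rfl⟩ := List.mem_map.mp hr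
    exact hloc b (hrs b hb)
  have hreg' : IsRegular F (rs.map (algebraMap B R)) :=
    IsRegular.of_isWeaklyRegular_of_mem_maximalIdeal F hmem
      ((isWeaklyRegular_map_algebraMap_iff R F rs).mpr hreg)
  refine ⟨inferInstance, rs.map (algebraMap B R), hmem, hreg', ?_⟩
  rw [List.length_map]
  apply le_antisymm
  · have h1 := Module.supportDim_add_length_eq_supportDim_of_isRegular _ hreg'
    have h2 : Module.supportDim R F ≤ ringKrullDim R := Module.supportDim_le_ringKrullDim R F
    have := hreg'.quot_ofList_smul_nontrivial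
    have h3 : Module.supportDim R (F ⧸ Ideal.ofList (rs.map (algebraMap B R)) •
        (⊤ : Submodule R F)) ≠ ⊥ :=
      (Module.supportDim_ne_bot_iff_nontrivial R _).mpr inferInstance
    rw [List.length_map] at h1
    refine le_trans ?_ (h1.le.trans h2)
    obtain ⟨d, hd⟩ := WithBot.ne_bot_iff_exists.mp h3
    rw [← hd]
    have : (0 : WithBot ℕ∞) ≤ (d : WithBot ℕ∞) := by
      exact_mod_cast bot_le
    calc (rs.length : WithBot ℕ∞) = 0 + rs.length := by simp
      _ ≤ (d : WithBot ℕ∞) + rs.length := by gcongr
  · rw [hlen]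
    exact ringKrullDim_le_of_isIntegral B R

end Vale.Agent.P190
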